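import Vale.Agent.P043.T2.H664.Tab

/-! # P043, row FIN: assembly of the finite gadget -/

namespace Vale.Agent.P043.T2.H664

open Finset

/-! ## Matchings between finite sets of equal size -/

/-- a fixed matching between finite sets of the same cardinality -/
def mt (S : Finset PP) (R : Finset QQ) (p : PP) (q : QQ) : Prop :=
  ∃ (h : S.card = R.card) (hp : p ∈ S), ((Finset.equivOfCardEq h ⟨p, hp⟩ : R) : QQ) = q

theorem mt_mem {S : Finset PP} {R : Finset QQ} {p : PP} {q : QQ} (h : mt S R p q) :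
    p ∈ S ∧ q ∈ R := by
  obtain ⟨h, hp, rfl⟩ := h
  exact ⟨hp, Subtype.prop _⟩

theorem mt_left {S : Finset PP} {R : Finset QQ} (h : S.card = R.card) {p : PP} (hp : p ∈ S) :
    ∃! q, mt S R p q := by
  refine ⟨(Finset.equivOfCardEq h ⟨p, hp⟩ : R), ⟨h, hp, rfl⟩, ?_⟩
  rintro q ⟨_, _, rfl⟩
  rfl

theorem mt_right {S : Finset PP} {R : Finset QQ} (h : S.card = R.card) {q : QQ} (hq : q ∈ R) :
    ∃! p, mt S R p q := by
  refine ⟨((Finset.equivOfCardEq h).symm ⟨q, hq⟩ : S), ⟨h, Subtype.prop _, by simp⟩, ?_⟩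
  rintro p ⟨_, hp, hh⟩
  have h2 : (Finset.equivOfCardEq h ⟨p, hp⟩) = ⟨q, hq⟩ := Subtype.ext hh
  rw [← h2]
  simp

/-! ## The general set -/

/-- points of the D-family in a cell -/
def SS (D : PP → Fin 5 × Fin 7 → PP → Bool) (h : PP) (c : Fin 2 × Fin 3) (e : Fin 5 × Fin 7) :
    Finset PP := univ.filter (fun p => cP p = c ∧ D h e p = true)
/-- points of the B-family in a layer -/
def RR (B : QQ → Fin 2 × Fin 3 → QQ → Bool) (h : QQ) (c : Fin 2 × Fin 3) (e : Fin 5 × Fin 7) :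
    Finset QQ := univ.filter (fun q => cQ q = e ∧ B h c q = true)

theorem mem_SS {D : PP → Fin 5 × Fin 7 → PP → Bool} {h : PP} {c : Fin 2 × Fin 3}
    {e : Fin 5 × Fin 7} {p : PP} : p ∈ SS D h c e ↔ cP p = c ∧ D h e p = true := by
  simp [SS]
theorem mem_RR {B : QQ → Fin 2 × Fin 3 → QQ → Bool} {h : QQ} {c : Fin 2 × Fin 3}
    {e : Fin 5 × Fin 7} {q : QQ} : q ∈ RR B h c e ↔ cQ q = e ∧ B h c q = true := by
  simp [RR]

/-- `P`-part of an element of `K` -/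
def pp (x : K) : PP := (x.1, x.2.1)
/-- `Q`-part of an element of `K` -/
def qq (x : K) : QQ := x.2.2

/-- the set built from a D- and a B-family -/
def AA (D : PP → Fin 5 × Fin 7 → PP → Bool) (B : QQ → Fin 2 × Fin 3 → QQ → Bool) :
    Set (K × K) :=
  {x | mt (SS D (pp x.1) (cP (pp x.2)) (cQ (qq x.2))) (RR B (qq x.1) (cP (pp x.2)) (cQ (qq x.2)))
    (pp x.2) (qq x.2)}

theorem pair_exu {W U : Type} {M : W → U → Prop} {good : W → Prop} (h1 : ∃! w, good w)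
    (h2 : ∀ w, good w → ∃! u, M w u) (h3 : ∀ w u, M w u → good w) :
    ∃ w u, M w u ∧ ∀ w' u', M w' u' → w' = w ∧ u' = u := by
  obtain ⟨w, hw, hw2⟩ := h1
  obtain ⟨u, hu, hu2⟩ := h2 w hw
  refine ⟨w, u, hu, fun w' u' h => ?_⟩
  have e : w' = w := hw2 w' (h3 w' u' h)
  subst e
  exact ⟨rfl, hu2 u' h⟩

/-! ## Small facts -/

theorem kapF (i : Ix) : kap (row false i) =
    (2 * ((i.1 : ℕ) : ZMod 4), 3 * ((i.2.1 : ℕ) : ZMod 9), ((i.2.2.1 : ℕ) : ZMod 25),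
      ((i.2.2.2 : ℕ) : ZMod 49)) := by
  have a1 : (11025 : ZMod 4) = 1 := by decide
  have a2 : (34300 : ZMod 4) = 0 := by decide
  have a3 : (15876 : ZMod 4) = 0 := by decide
  have a4 : (27000 : ZMod 4) = 0 := by decide
  have b1 : (11025 : ZMod 9) = 0 := by decide
  have b2 : (34300 : ZMod 9) = 1 := by decide
  have b3 : (15876 : ZMod 9) = 0 := by decide
  have b4 : (27000 : ZMod 9) = 0 := by decide
  have c1 : (11025 : ZMod 25) = 0 := by decide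
  have c2 : (34300 : ZMod 25) = 0 := by decide
  have c3 : (15876 : ZMod 25) = 1 := by decide
  have c4 : (27000 : ZMod 25) = 0 := by decide
  have d1 : (11025 : ZMod 49) = 0 := by decide
  have d2 : (34300 : ZMod 49) = 0 := by decide
  have d3 : (15876 : ZMod 49) = 0 := by decide
  have d4 : (27000 : ZMod 49) = 1 := by decide
  simp [kap, row, a1, a2, a3, a4, b1, b2, b3, b4, c1, c2, c3, c4, d1, d2, d3, d4]

theorem kapT (i : Ix) : kap (row true i) =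
    (((i.1 : ℕ) : ZMod 4), ((i.2.1 : ℕ) : ZMod 9), 5 * ((i.2.2.1 : ℕ) : ZMod 25),
      7 * ((i.2.2.2 : ℕ) : ZMod 49)) := by
  have a1 : (11025 : ZMod 4) = 1 := by decide
  have a2 : (34300 : ZMod 4) = 0 := by decide
  have a3 : (15876 : ZMod 4) = 0 := by decide
  have a4 : (27000 : ZMod 4) = 0 := by decide
  have b1 : (11025 : ZMod 9) = 0 := by decide
  have b2 : (34300 : ZMod 9) = 1 := by decide
  have b3 : (15876 : ZMod 9) = 0 := by decide
  have b4 : (27000 : ZMod 9) = 0 := by decide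
  have c1 : (11025 : ZMod 25) = 0 := by decide
  have c2 : (34300 : ZMod 25) = 0 := by decide
  have c3 : (15876 : ZMod 25) = 1 := by decide
  have c4 : (27000 : ZMod 25) = 0 := by decide
  have d1 : (11025 : ZMod 49) = 0 := by decide
  have d2 : (34300 : ZMod 49) = 0 := by decide
  have d3 : (15876 : ZMod 49) = 0 := by decide
  have d4 : (27000 : ZMod 49) = 1 := by decide
  simp [kap, row, a1, a2, a3, a4, b1, b2, b3, b4, c1, c2, c3, c4, d1, d2, d3, d4]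

/-- coset shift in `P` -/
def shP (p : PP) (u : Fin 2 × Fin 3) : PP :=
  (p.1 - 2 * ((u.1 : ℕ) : ZMod 4), p.2 - 3 * ((u.2 : ℕ) : ZMod 9))
/-- coset shift in `Q` -/
def shQ (q : QQ) (w : Fin 5 × Fin 7) : QQ :=
  (q.1 - 5 * ((w.1 : ℕ) : ZMod 25), q.2 - 7 * ((w.2 : ℕ) : ZMod 49))
/-- window shift in `P` -/
def wiP (p : PP) (u : Fin 2 × Fin 3) : PP :=
  (p.1 - ((u.1 : ℕ) : ZMod 4), p.2 - ((u.2 : ℕ) : ZMod 9))
/-- window shift in `Q` -/
def wiQ (q : QQ) (w : Fin 5 × Fin 7) : QQ :=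
  (q.1 - ((w.1 : ℕ) : ZMod 25), q.2 - ((w.2 : ℕ) : ZMod 49))

theorem f4 : ∀ i i' : ZMod 4, i'.val % 2 = i.val % 2 →
    ∃ u : Fin 2, i' = i - 2 * ((u : ℕ) : ZMod 4) := by decide +kernel
theorem f9 : ∀ i i' : ZMod 9, i'.val % 3 = i.val % 3 →
    ∃ u : Fin 3, i' = i - 3 * ((u : ℕ) : ZMod 9) := by decide +kernel
theorem f25 : ∀ i i' : ZMod 25, i'.val % 5 = i.val % 5 →
    ∃ u : Fin 5, i' = i - 5 * ((u : ℕ) : ZMod 25) := by decide +kernel
theorem f49 : ∀ i i' : ZMod 49, i'.val % 7 = i.val % 7 →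
    ∃ u : Fin 7, i' = i - 7 * ((u : ℕ) : ZMod 49) := by decide +kernel
theorem g4 : ∀ u u' : Fin 2, 2 * ((u : ℕ) : ZMod 4) = 2 * ((u' : ℕ) : ZMod 4) → u = u' := by
  decide +kernel
theorem g9 : ∀ u u' : Fin 3, 3 * ((u : ℕ) : ZMod 9) = 3 * ((u' : ℕ) : ZMod 9) → u = u' := by
  decide +kernel
theorem g25 : ∀ u u' : Fin 5, 5 * ((u : ℕ) : ZMod 25) = 5 * ((u' : ℕ) : ZMod 25) → u = u' := by
  decide +kernel
theorem g49 : ∀ u u' : Fin 7, 7 * ((u : ℕ) : ZMod 49) = 7 * ((u' : ℕ) : ZMod 49) → u = u' := by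
  decide +kernel
theorem m4 : ∀ i : ZMod 4, ∀ u : Fin 2, (i - 2 * ((u : ℕ) : ZMod 4)).val % 2 = i.val % 2 := by
  decide +kernel
theorem m9 : ∀ i : ZMod 9, ∀ u : Fin 3, (i - 3 * ((u : ℕ) : ZMod 9)).val % 3 = i.val % 3 := by
  decide +kernel
theorem m25 : ∀ i : ZMod 25, ∀ u : Fin 5,
    (i - 5 * ((u : ℕ) : ZMod 25)).val % 5 = i.val % 5 := by decide +kernel
theorem m49 : ∀ i : ZMod 49, ∀ u : Fin 7,
    (i - 7 * ((u : ℕ) : ZMod 49)).val % 7 = i.val % 7 := by decide +kernel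
theorem w25 : ∀ k : ZMod 25, ∀ x : Fin 5, ∃ c : Fin 5, (k - ((c : ℕ) : ZMod 25)).val % 5 = x ∧
    ∀ c' : Fin 5, (k - ((c' : ℕ) : ZMod 25)).val % 5 = x → c' = c := by decide +kernel
theorem w49 : ∀ k : ZMod 49, ∀ x : Fin 7, ∃ c : Fin 7, (k - ((c : ℕ) : ZMod 49)).val % 7 = x ∧
    ∀ c' : Fin 7, (k - ((c' : ℕ) : ZMod 49)).val % 7 = x → c' = c := by decide +kernel

theorem cP_eq {p p' : PP} : cP p = cP p' ↔ p.1.val % 2 = p'.1.val % 2 ∧ p.2.val % 3 = p'.2.val % 3 := by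
  simp [cP, Prod.ext_iff, Fin.ext_iff, Fin.ofNat]
theorem cQ_eq {p p' : QQ} : cQ p = cQ p' ↔ p.1.val % 5 = p'.1.val % 5 ∧ p.2.val % 7 = p'.2.val % 7 := by
  simp [cQ, Prod.ext_iff, Fin.ext_iff, Fin.ofNat]

theorem cP_sh (p : PP) (u : Fin 2 × Fin 3) : cP (shP p u) = cP p :=
  cP_eq.2 ⟨m4 _ _, m9 _ _⟩
theorem cQ_sh (p : QQ) (u : Fin 5 × Fin 7) : cQ (shQ p u) = cQ p :=
  cQ_eq.2 ⟨m25 _ _, m49 _ _⟩
theorem shP_ex {p p' : PP} (h : cP p' = cP p) : ∃ u, p' = shP p u := by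
  obtain ⟨h1, h2⟩ := cP_eq.1 h
  obtain ⟨u, hu⟩ := f4 _ _ h1
  obtain ⟨v, hv⟩ := f9 _ _ h2
  exact ⟨(u, v), Prod.ext hu hv⟩
theorem shQ_ex {p p' : QQ} (h : cQ p' = cQ p) : ∃ u, p' = shQ p u := by
  obtain ⟨h1, h2⟩ := cQ_eq.1 h
  obtain ⟨u, hu⟩ := f25 _ _ h1
  obtain ⟨v, hv⟩ := f49 _ _ h2
  exact ⟨(u, v), Prod.ext hu hv⟩
theorem shP_inj {p : PP} {u u' : Fin 2 × Fin 3} (h : shP p u = shP p u') : u = u' := by
  simp only [shP, Prod.mk.injEq, sub_right_inj] at h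
  exact Prod.ext (g4 _ _ h.1) (g9 _ _ h.2)
theorem shQ_inj {p : QQ} {u u' : Fin 5 × Fin 7} (h : shQ p u = shQ p u') : u = u' := by
  simp only [shQ, Prod.mk.injEq, sub_right_inj] at h
  exact Prod.ext (g25 _ _ h.1) (g49 _ _ h.2)

/-! ## The two equations for `AA` -/

section main

variable {D : PP → Fin 5 × Fin 7 → PP → Bool} {B : QQ → Fin 2 × Fin 3 → QQ → Bool}

theorem mem_false (h r : K) (i : Ix) :
    (h - sh false i, r - kap (row false i)) ∈ AA D B ↔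
      mt (SS D (pp h) (cP (pp r)) (cQ (wiQ (qq r) i.2.2)))
        (RR B (wiQ (qq h) i.2.2) (cP (pp r)) (cQ (wiQ (qq r) i.2.2)))
        (shP (pp r) (i.1, i.2.1)) (wiQ (qq r) i.2.2) := by
  rw [kapF]
  have e1 : pp (h - sh false i) = pp h := by simp [pp, sh]
  have e2 : qq (h - sh false i) = wiQ (qq h) i.2.2 := by simp [qq, sh, wiQ]; rfl
  have e3 : pp (r - (2 * ((i.1 : ℕ) : ZMod 4), 3 * ((i.2.1 : ℕ) : ZMod 9),
    ((i.2.2.1 : ℕ) : ZMod 25), ((i.2.2.2 : ℕ) : ZMod 49))) = shP (pp r) (i.1, i.2.1) := by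
    simp [pp, shP]
  have e4 : qq (r - (2 * ((i.1 : ℕ) : ZMod 4), 3 * ((i.2.1 : ℕ) : ZMod 9),
    ((i.2.2.1 : ℕ) : ZMod 25), ((i.2.2.2 : ℕ) : ZMod 49))) = wiQ (qq r) i.2.2 := by
    simp [qq, wiQ]; rfl
  unfold AA
  simp only [Set.mem_ofPred_eq, e1, e2, e3, e4, cP_sh]

theorem mem_true (h r : K) (i : Ix) :
    (h - sh true i, r - kap (row true i)) ∈ AA D B ↔
      mt (SS D (wiP (pp h) (i.1, i.2.1)) (cP (wiP (pp r) (i.1, i.2.1))) (cQ (qq r)))
        (RR B (qq h) (cP (wiP (pp r) (i.1, i.2.1))) (cQ (qq r)))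
        (wiP (pp r) (i.1, i.2.1)) (shQ (qq r) i.2.2) := by
  rw [kapT]
  have e1 : pp (h - sh true i) = wiP (pp h) (i.1, i.2.1) := by simp [pp, sh, wiP]
  have e2 : qq (h - sh true i) = qq h := by simp [qq, sh]
  have e3 : pp (r - (((i.1 : ℕ) : ZMod 4), ((i.2.1 : ℕ) : ZMod 9),
    5 * ((i.2.2.1 : ℕ) : ZMod 25), 7 * ((i.2.2.2 : ℕ) : ZMod 49))) = wiP (pp r) (i.1, i.2.1) := by
    simp [pp, wiP]
  have e4 : qq (r - (((i.1 : ℕ) : ZMod 4), ((i.2.1 : ℕ) : ZMod 9),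
    5 * ((i.2.2.1 : ℕ) : ZMod 25), 7 * ((i.2.2.2 : ℕ) : ZMod 49))) = shQ (qq r) i.2.2 := by
    simp [qq, shQ]; rfl
  unfold AA
  simp only [Set.mem_ofPred_eq, e1, e2, e3, e4, cQ_sh]

theorem exF (hc : ∀ h h' c e, (SS D h c e).card = (RR B h' c e).card) (h r : K)
    (hB : ∃! w : Fin 5 × Fin 7, B (wiQ (qq h) w) (cP (pp r)) (wiQ (qq r) w) = true) :
    ∃! i : Ix, (h - sh false i, r - kap (row false i)) ∈ AA D B := by
  simp only [mem_false]
  obtain ⟨w, u, hM, hu⟩ := pair_exu (M := fun (w : Fin 5 × Fin 7) (u : Fin 2 × Fin 3) =>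
      mt (SS D (pp h) (cP (pp r)) (cQ (wiQ (qq r) w)))
        (RR B (wiQ (qq h) w) (cP (pp r)) (cQ (wiQ (qq r) w)))
        (shP (pp r) u) (wiQ (qq r) w)) hB
    (by
      intro w hw
      have hR : wiQ (qq r) w ∈ RR B (wiQ (qq h) w) (cP (pp r)) (cQ (wiQ (qq r) w)) := by
        simp [RR, hw]
      obtain ⟨p, hp, hp2⟩ := mt_right (hc (pp h) (wiQ (qq h) w) (cP (pp r)) (cQ (wiQ (qq r) w))) hR
      have hpS := (mt_mem hp).1
      have hcp : cP p = cP (pp r) := by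
        simp only [SS, Finset.mem_filter] at hpS
        exact hpS.2.1
      obtain ⟨u, rfl⟩ := shP_ex hcp
      exact ⟨u, hp, fun u' hu' => shP_inj (hp2 _ hu')⟩)
    (by
      intro w u hM
      have := (mt_mem hM).2
      simp only [RR, Finset.mem_filter] at this
      exact this.2.2)
  refine ⟨(u.1, u.2, w), hM, ?_⟩
  rintro ⟨a, b, w'⟩ h'
  obtain ⟨e1, e2⟩ := hu w' (a, b) h'
  subst e1
  rw [← e2]

theorem exT (hc : ∀ h h' c e, (SS D h c e).card = (RR B h' c e).card) (h r : K)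
    (hD : ∃! u : Fin 2 × Fin 3, D (wiP (pp h) u) (cQ (qq r)) (wiP (pp r) u) = true) :
    ∃! i : Ix, (h - sh true i, r - kap (row true i)) ∈ AA D B := by
  simp only [mem_true]
  obtain ⟨u, w, hM, hu⟩ := pair_exu (M := fun (u : Fin 2 × Fin 3) (w : Fin 5 × Fin 7) =>
      mt (SS D (wiP (pp h) u) (cP (wiP (pp r) u)) (cQ (qq r)))
        (RR B (qq h) (cP (wiP (pp r) u)) (cQ (qq r)))
        (wiP (pp r) u) (shQ (qq r) w)) hD
    (by
      intro u hu
      have hS : wiP (pp r) u ∈ SS D (wiP (pp h) u) (cP (wiP (pp r) u)) (cQ (qq r)) := by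
        simp [SS, hu]
      obtain ⟨q, hq, hq2⟩ := mt_left (hc (wiP (pp h) u) (qq h) (cP (wiP (pp r) u)) (cQ (qq r))) hS
      have hqR := (mt_mem hq).2
      have hcq : cQ q = cQ (qq r) := by
        simp only [RR, Finset.mem_filter] at hqR
        exact hqR.2.1
      obtain ⟨w, rfl⟩ := shQ_ex hcq
      exact ⟨w, hq, fun w' hw' => shQ_inj (hq2 _ hw')⟩)
    (by
      intro u w hM
      have := (mt_mem hM).1
      simp only [SS, Finset.mem_filter] at this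
      exact this.2.2)
  refine ⟨(u.1, u.2, w), hM, ?_⟩
  rintro ⟨a, b, w'⟩ h'
  obtain ⟨e1, e2⟩ := hu (a, b) w' h'
  subst e2
  rw [← e1]

theorem noF (h r : K) (hB : ∀ w : Fin 5 × Fin 7, B (wiQ (qq h) w) (cP (pp r)) (wiQ (qq r) w) = false)
    (i : Ix) : (h - sh false i, r - kap (row false i)) ∉ AA D B := by
  rw [mem_false]
  intro hM
  have := (mt_mem hM).2
  simp only [RR, Finset.mem_filter] at this
  have h2 := hB i.2.2
  rw [this.2.2] at h2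
  exact absurd h2 (by decide)

theorem noT (h r : K) (hD : ∀ u : Fin 2 × Fin 3, D (wiP (pp h) u) (cQ (qq r)) (wiP (pp r) u) = false)
    (i : Ix) : (h - sh true i, r - kap (row true i)) ∉ AA D B := by
  rw [mem_true]
  intro hM
  have := (mt_mem hM).1
  simp only [SS, Finset.mem_filter] at this
  have h2 := hD (i.1, i.2.1)
  rw [this.2.2] at h2
  exact absurd h2 (by decide)

end main

/-! ## The concrete families -/

/-- D-family of class 0 -/
def D0 (h : PP) (e : Fin 5 × Fin 7) (p : PP) : Bool :=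
  d0 (tb e.1 e.2) ((h.2 - p.2).val / 3) p.1.val p.2.val
/-- D-family of class 1 -/
def D1 (h : PP) (e : Fin 5 × Fin 7) (p : PP) : Bool :=
  d1 (tb e.1 e.2) ((h.1 - p.1).val / 2) p.1.val p.2.val
/-- B-family of class 0 -/
def B0 (h : QQ) (c : Fin 2 × Fin 3) (q : QQ) : Bool :=
  b0 c.1 c.2 ((h.2 - q.2).val / 7) (q.1.val / 5) (q.1.val % 5) (q.2.val % 7)
/-- B-family of class 1 -/
def B1 (h : QQ) (c : Fin 2 × Fin 3) (q : QQ) : Bool :=
  b1 c.1 c.2 ((h.1 - q.1).val / 5) (q.2.val / 7) (q.1.val % 5) (q.2.val % 7)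

/-- the point with given residue and given quotient -/
def ell49 (h : ZMod 49) (f l : Fin 7) : ZMod 49 :=
  h - 7 * ((f : ℕ) : ZMod 49) - (((h - ((l : ℕ) : ZMod 49)).val % 7 : ℕ) : ZMod 49)
/-- the point with given residue and given quotient -/
def ell25 (h : ZMod 25) (f l : Fin 5) : ZMod 25 :=
  h - 5 * ((f : ℕ) : ZMod 25) - (((h - ((l : ℕ) : ZMod 25)).val % 5 : ℕ) : ZMod 25)

theorem e49a : ∀ h l : ZMod 49,
    ell49 h (Fin.ofNat 7 ((h - l).val / 7)) (Fin.ofNat 7 l.val) = l := by decide +kernel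
theorem e25a : ∀ h l : ZMod 25,
    ell25 h (Fin.ofNat 5 ((h - l).val / 5)) (Fin.ofNat 5 l.val) = l := by decide +kernel
theorem e49b : ∀ h : ZMod 49, ∀ f l : Fin 7, (h - ell49 h f l).val / 7 = f ∧
    (ell49 h f l).val % 7 = l := by decide +kernel
theorem e25b : ∀ h : ZMod 25, ∀ f l : Fin 5, (h - ell25 h f l).val / 5 = f ∧
    (ell25 h f l).val % 5 = l := by decide +kernel
/-- the point `k + 5 s` -/
def pt25 (k s : Fin 5) : ZMod 25 := ((k : ℕ) : ZMod 25) + 5 * ((s : ℕ) : ZMod 25)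
/-- the point `k + 7 s` -/
def pt49 (k s : Fin 7) : ZMod 49 := ((k : ℕ) : ZMod 49) + 7 * ((s : ℕ) : ZMod 49)
theorem p25a : ∀ k : ZMod 25, pt25 (Fin.ofNat 5 k.val) (Fin.ofNat 5 (k.val / 5)) = k := by
  decide +kernel
theorem p49a : ∀ k : ZMod 49, pt49 (Fin.ofNat 7 k.val) (Fin.ofNat 7 (k.val / 7)) = k := by
  decide +kernel
theorem p25b : ∀ k s : Fin 5, (pt25 k s).val % 5 = k ∧ (pt25 k s).val / 5 = s := by
  decide +kernel
theorem p49b : ∀ k s : Fin 7, (pt49 k s).val % 7 = k ∧ (pt49 k s).val / 7 = s := by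
  decide +kernel
theorem q49 : ∀ h : ZMod 49, h.val / 7 < 7 := by decide +kernel
theorem q25 : ∀ h : ZMod 25, h.val / 5 < 5 := by decide +kernel
theorem q9 : ∀ h : ZMod 9, h.val / 3 < 3 := by decide +kernel
theorem q4 : ∀ h : ZMod 4, h.val / 2 < 2 := by decide +kernel

theorem cardR0 (h : QQ) (c : Fin 2 × Fin 3) (e : Fin 5 × Fin 7) :
    (RR B0 h c e).card =
      (univ.filter (fun x : Fin 7 × Fin 5 => b0 c.1 c.2 x.1 x.2 e.1 e.2 = true)).card := by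
  apply Finset.card_nbij' (fun q => (Fin.ofNat 7 ((h.2 - q.2).val / 7), Fin.ofNat 5 (q.1.val / 5)))
    (fun x => (pt25 e.1 x.2, ell49 h.2 x.1 e.2))
  · intro q hq
    simp only [Finset.mem_coe, mem_RR, Finset.mem_filter, Finset.mem_univ, true_and, B0] at hq ⊢
    obtain ⟨h1, h2⟩ := hq
    rw [← h1]
    simp only [cQ, Fin.ofNat, Nat.mod_eq_of_lt (q49 _), Nat.mod_eq_of_lt (q25 _)]
    exact h2
  · intro x hx
    simp only [Finset.mem_coe, mem_RR, Finset.mem_filter, Finset.mem_univ, true_and, B0] at hx ⊢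
    refine ⟨?_, ?_⟩
    · apply Prod.ext
      · apply Fin.ext
        exact (p25b e.1 x.2).1
      · apply Fin.ext
        exact (e49b h.2 x.1 e.2).2
    · rw [(e49b h.2 x.1 e.2).1, (e49b h.2 x.1 e.2).2, (p25b e.1 x.2).1, (p25b e.1 x.2).2]
      exact hx
  · intro q hq
    obtain ⟨rfl, _⟩ := mem_RR.1 (Finset.mem_coe.1 hq)
    exact Prod.ext (p25a q.1) (e49a h.2 q.2)
  · intro x hx
    apply Prod.ext
    · apply Fin.ext
      simp only [Fin.ofNat, (e49b h.2 x.1 e.2).1, Nat.mod_eq_of_lt x.1.2]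
    · apply Fin.ext
      simp only [Fin.ofNat, (p25b e.1 x.2).2, Nat.mod_eq_of_lt x.2.2]

theorem cardR1 (h : QQ) (c : Fin 2 × Fin 3) (e : Fin 5 × Fin 7) :
    (RR B1 h c e).card =
      (univ.filter (fun x : Fin 5 × Fin 7 => b1 c.1 c.2 x.1 x.2 e.1 e.2 = true)).card := by
  apply Finset.card_nbij' (fun q => (Fin.ofNat 5 ((h.1 - q.1).val / 5), Fin.ofNat 7 (q.2.val / 7)))
    (fun x => (ell25 h.1 x.1 e.1, pt49 e.2 x.2))
  · intro q hq
    simp only [Finset.mem_coe, mem_RR, Finset.mem_filter, Finset.mem_univ, true_and, B1] at hq ⊢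
    obtain ⟨h1, h2⟩ := hq
    rw [← h1]
    simp only [cQ, Fin.ofNat, Nat.mod_eq_of_lt (q49 _), Nat.mod_eq_of_lt (q25 _)]
    exact h2
  · intro x hx
    simp only [Finset.mem_coe, mem_RR, Finset.mem_filter, Finset.mem_univ, true_and, B1] at hx ⊢
    refine ⟨?_, ?_⟩
    · apply Prod.ext
      · apply Fin.ext
        exact (e25b h.1 x.1 e.1).2
      · apply Fin.ext
        exact (p49b e.2 x.2).1
    · rw [(e25b h.1 x.1 e.1).1, (e25b h.1 x.1 e.1).2, (p49b e.2 x.2).1, (p49b e.2 x.2).2]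
      exact hx
  · intro q hq
    obtain ⟨rfl, _⟩ := mem_RR.1 (Finset.mem_coe.1 hq)
    exact Prod.ext (e25a h.1 q.1) (p49a q.2)
  · intro x hx
    apply Prod.ext
    · apply Fin.ext
      simp only [Fin.ofNat, (e25b h.1 x.1 e.1).1, Nat.mod_eq_of_lt x.1.2]
    · apply Fin.ext
      simp only [Fin.ofNat, (p49b e.2 x.2).2, Nat.mod_eq_of_lt x.2.2]

theorem card0 (h : PP) (h' : QQ) (c : Fin 2 × Fin 3) (e : Fin 5 × Fin 7) :
    (SS D0 h c e).card = (RR B0 h' c e).card := by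
  rw [cardR0, cardI0]
  exact cardS0 ⟨tb e.1 e.2, tb_lt _ _⟩ h.2 c

theorem card1 (h : PP) (h' : QQ) (c : Fin 2 × Fin 3) (e : Fin 5 × Fin 7) :
    (SS D1 h c e).card = (RR B1 h' c e).card := by
  rw [cardR1, cardI1]
  exact cardS1 ⟨tb e.1 e.2, tb_lt _ _⟩ h.1 c

/-- class of a row, type true -/
def xx (r : K) : Bool := x2 (tb (cQ (qq r)).1 (cQ (qq r)).2) (pp r).2.val
/-- class of a row, type false -/
def yy (r : K) : Bool := isC1 (cP (pp r)).1 (cP (pp r)).2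

theorem D0_ex (h r : K) (hx : xx r = true) :
    ∃! u : Fin 2 × Fin 3, D0 (wiP (pp h) u) (cQ (qq r)) (wiP (pp r) u) = true := by
  obtain ⟨w, hw, hw2⟩ := d0_one ⟨tb (cQ (qq r)).1 (cQ (qq r)).2, tb_lt _ _⟩
    ⟨((pp h).2 - (pp r).2).val / 3, q9 _⟩ (pp r).1 (pp r).2 hx
  refine ⟨w, ?_, fun w' hw' => hw2 w' ?_⟩
  · simpa only [D0, wiP, sub_sub_sub_cancel_right] using hw
  · simpa only [D0, wiP, sub_sub_sub_cancel_right] using hw'

theorem D0_no (h r : K) (hx : xx r = false) (u : Fin 2 × Fin 3) :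
    D0 (wiP (pp h) u) (cQ (qq r)) (wiP (pp r) u) = false := by
  have hw := d0_none ⟨tb (cQ (qq r)).1 (cQ (qq r)).2, tb_lt _ _⟩
    ⟨((pp h).2 - (pp r).2).val / 3, q9 _⟩ (pp r).1 (pp r).2 hx u
  simpa only [D0, wiP, sub_sub_sub_cancel_right] using hw

theorem D1_ex (h r : K) (hx : xx r = false) :
    ∃! u : Fin 2 × Fin 3, D1 (wiP (pp h) u) (cQ (qq r)) (wiP (pp r) u) = true := by
  obtain ⟨w, hw, hw2⟩ := d1_one ⟨tb (cQ (qq r)).1 (cQ (qq r)).2, tb_lt _ _⟩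
    ⟨((pp h).1 - (pp r).1).val / 2, q4 _⟩ (pp r).1 (pp r).2 hx
  refine ⟨w, ?_, fun w' hw' => hw2 w' ?_⟩
  · simpa only [D1, wiP, sub_sub_sub_cancel_right] using hw
  · simpa only [D1, wiP, sub_sub_sub_cancel_right] using hw'

theorem D1_no (h r : K) (hx : xx r = true) (u : Fin 2 × Fin 3) :
    D1 (wiP (pp h) u) (cQ (qq r)) (wiP (pp r) u) = false := by
  have hw := d1_none ⟨tb (cQ (qq r)).1 (cQ (qq r)).2, tb_lt _ _⟩
    ⟨((pp h).1 - (pp r).1).val / 2, q4 _⟩ (pp r).1 (pp r).2 hx u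
  simpa only [D1, wiP, sub_sub_sub_cancel_right] using hw

theorem B0_ex (h r : K) (hy : yy r = false) :
    ∃! w : Fin 5 × Fin 7, B0 (wiQ (qq h) w) (cP (pp r)) (wiQ (qq r) w) = true := by
  have hf := q49 ((qq h).2 - (qq r).2)
  obtain ⟨a, ha, ha2⟩ := w25 (qq r).1 ⟨kb0 (cP (pp r)).1 (((qq h).2 - (qq r).2).val / 7),
    kb0_lt _ ⟨_, hf⟩⟩
  have hs := q25 ((qq r).1 - ((a : ℕ) : ZMod 25))
  obtain ⟨b, hb, hb2⟩ := w49 (qq r).2 ⟨lb0 (cP (pp r)).1 (cP (pp r)).2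
    (5 * (((qq h).2 - (qq r).2).val / 7) + ((qq r).1 - ((a : ℕ) : ZMod 25)).val / 5),
    lb0_lt _ _ ⟨_, hf⟩ ⟨_, hs⟩⟩
  have key : ∀ w : Fin 5 × Fin 7, B0 (wiQ (qq h) w) (cP (pp r)) (wiQ (qq r) w) = true ↔
      ((qq r).1 - ((w.1 : ℕ) : ZMod 25)).val % 5 =
        kb0 (cP (pp r)).1 (((qq h).2 - (qq r).2).val / 7) ∧
      ((qq r).2 - ((w.2 : ℕ) : ZMod 49)).val % 7 = lb0 (cP (pp r)).1 (cP (pp r)).2
        (5 * (((qq h).2 - (qq r).2).val / 7) + ((qq r).1 - ((w.1 : ℕ) : ZMod 25)).val / 5) := by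
    intro w
    have hy' : isC1 (cP (pp r)).1 (cP (pp r)).2 = false := hy
    simp [B0, b0, wiQ, sub_sub_sub_cancel_right, hy', Nat.beq_eq]
  refine ⟨(a, b), (key _).2 ⟨ha, hb⟩, ?_⟩
  rintro ⟨a', b'⟩ h'
  obtain ⟨h1, h2⟩ := (key _).1 h'
  have e1 : a' = a := ha2 a' h1
  subst e1
  rw [hb2 b' h2]

theorem B1_ex (h r : K) (hy : yy r = true) :
    ∃! w : Fin 5 × Fin 7, B1 (wiQ (qq h) w) (cP (pp r)) (wiQ (qq r) w) = true := by
  have hf := q25 ((qq h).1 - (qq r).1)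
  obtain ⟨b, hb, hb2⟩ := w49 (qq r).2 ⟨lb1 (((qq h).1 - (qq r).1).val / 5), lb1_lt ⟨_, hf⟩⟩
  have hs := q49 ((qq r).2 - ((b : ℕ) : ZMod 49))
  obtain ⟨a, ha, ha2⟩ := w25 (qq r).1 ⟨kb1 (cP (pp r)).1
    (7 * (((qq h).1 - (qq r).1).val / 5) + ((qq r).2 - ((b : ℕ) : ZMod 49)).val / 7),
    kb1_lt _ ⟨_, hf⟩ ⟨_, hs⟩⟩
  have key : ∀ w : Fin 5 × Fin 7, B1 (wiQ (qq h) w) (cP (pp r)) (wiQ (qq r) w) = true ↔
      ((qq r).2 - ((w.2 : ℕ) : ZMod 49)).val % 7 = lb1 (((qq h).1 - (qq r).1).val / 5) ∧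
      ((qq r).1 - ((w.1 : ℕ) : ZMod 25)).val % 5 = kb1 (cP (pp r)).1
        (7 * (((qq h).1 - (qq r).1).val / 5) + ((qq r).2 - ((w.2 : ℕ) : ZMod 49)).val / 7) := by
    intro w
    have hy' : isC1 (cP (pp r)).1 (cP (pp r)).2 = true := hy
    simp [B1, b1, wiQ, sub_sub_sub_cancel_right, hy', Nat.beq_eq]
  refine ⟨(a, b), (key _).2 ⟨hb, ha⟩, ?_⟩
  rintro ⟨a', b'⟩ h'
  obtain ⟨h1, h2⟩ := (key _).1 h'
  have e1 : b' = b := hb2 b' h1
  subst e1
  rw [ha2 a' h2]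

theorem B0_no (h r : K) (hy : yy r = true) (w : Fin 5 × Fin 7) :
    B0 (wiQ (qq h) w) (cP (pp r)) (wiQ (qq r) w) = false := by
  have hy' : isC1 (cP (pp r)).1 (cP (pp r)).2 = true := hy
  simp [B0, b0, hy']

theorem B1_no (h r : K) (hy : yy r = false) (w : Fin 5 × Fin 7) :
    B1 (wiQ (qq h) w) (cP (pp r)) (wiQ (qq r) w) = false := by
  have hy' : isC1 (cP (pp r)).1 (cP (pp r)).2 = false := hy
  simp [B1, b1, hy']

/-- (FIN) the finite gadget. -/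
theorem st_fin : StFin := by
  refine ⟨AA D0 B0, AA D1 B1, fun τ => {r | if τ then xx r = true else yy r = false},
    ?_, ?_, ?_, ?_, ?_, ?_⟩
  · intro h r
    have e1 : ∀ c e, SS D0 (pp (h + s0)) c e = SS D0 (pp h) c e := by
      intro c e
      apply Finset.filter_congr
      intro x _
      simp [D0, pp, s0]
    have e2 : ∀ c e, RR B0 (qq (h + s0)) c e = RR B0 (qq h) c e := by
      intro c e
      apply Finset.filter_congr
      intro x _
      simp [B0, qq, s0]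
    simp only [AA, Set.mem_ofPred_eq, e1, e2]
  · intro h r
    have e1 : ∀ c e, SS D1 (pp (h + s1)) c e = SS D1 (pp h) c e := by
      intro c e
      apply Finset.filter_congr
      intro x _
      simp [D1, pp, s1]
    have e2 : ∀ c e, RR B1 (qq (h + s1)) c e = RR B1 (qq h) c e := by
      intro c e
      apply Finset.filter_congr
      intro x _
      simp [B1, qq, s1]
    simp only [AA, Set.mem_ofPred_eq, e1, e2]
  · intro τ h r hr
    cases τ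
    · simp only [Set.mem_ofPred_eq, Bool.false_eq_true, if_false] at hr
      exact exF card0 h r (B0_ex h r hr)
    · simp only [Set.mem_ofPred_eq, if_true] at hr
      exact exT card0 h r (D0_ex h r hr)
  · intro τ h r hr i
    cases τ
    · simp only [Set.mem_ofPred_eq, Bool.false_eq_true, if_false, Bool.not_eq_false] at hr
      exact noF h r (B0_no h r hr) i
    · simp only [Set.mem_ofPred_eq, if_true, Bool.not_eq_true] at hr
      exact noT h r (D0_no h r hr) i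
  · intro τ h r hr
    cases τ
    · simp only [Set.mem_ofPred_eq, Bool.false_eq_true, if_false, Bool.not_eq_false] at hr
      exact exF card1 h r (B1_ex h r hr)
    · simp only [Set.mem_ofPred_eq, if_true, Bool.not_eq_true] at hr
      exact exT card1 h r (D1_ex h r hr)
  · intro τ h r hr i
    cases τ
    · simp only [Set.mem_ofPred_eq, Bool.false_eq_true, if_false] at hr
      exact noF h r (B1_no h r hr) i
    · simp only [Set.mem_ofPred_eq, if_true] at hr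
      exact noT h r (D1_no h r hr) i

end Vale.Agent.P043.T2.H664
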